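import Vale.Agent.P073.St
import Mathlib.Analysis.Calculus.BumpFunction.Convolution
import Mathlib.MeasureTheory.Measure.Lebesgue.EqHaar

/-!
# P073: a fixed linear change of the domain
-/

namespace Vale.Agent.P073.H183.Dom

open MeasureTheory Set Filter Topology Vale.Agent.P073.St
open scoped ContDiff

variable {p : ℝ} {Ω : Set V} {f : V → V} {F : V → Mat}

theorem pd_eq {φ : V → ℝ} (hφ : ContDiff ℝ ∞ φ) (j : Fin 3) (x : V) :
    pd φ x j = fderiv ℝ φ x (Pi.single j 1) := by
  have h1 : HasDerivAt (fun t : ℝ => Function.update x j t) (Pi.single j (1 : ℝ)) (x j) :=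
    hasDerivAt_update x j (x j)
  have h2 : HasFDerivAt φ (fderiv ℝ φ (Function.update x j (x j)))
      (Function.update x j (x j)) := ((hφ.differentiable (by simp)) _).hasFDerivAt
  have h3 := h2.comp_hasDerivAt (x j) h1
  rw [Function.update_eq_self] at h3
  exact h3.deriv

theorem pd_cont {φ : V → ℝ} (hφ : ContDiff ℝ ∞ φ) (j : Fin 3) :
    Continuous fun x => pd φ x j := by
  have h : (fun x => pd φ x j) = fun x => fderiv ℝ φ x (Pi.single j 1) :=
    funext fun x => pd_eq hφ j x
  rw [h]
  exact (hφ.continuous_fderiv (by simp)).clm_apply continuous_const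

theorem pd_comp {φ : V → ℝ} (hφ : ContDiff ℝ ∞ φ) (hc : HasCompactSupport φ) (j : Fin 3) :
    HasCompactSupport fun x => pd φ x j := by
  have h : (fun x => pd φ x j) = fun x => fderiv ℝ φ x (Pi.single j 1) :=
    funext fun x => pd_eq hφ j x
  rw [h]
  exact (hc.fderiv (𝕜 := ℝ)).comp_left (g := fun L : V →L[ℝ] ℝ => L (Pi.single j 1)) rfl

theorem int_mul {u : V → ℝ} (hp : 1 ≤ p) (hu : InLp p Ω u) {c : V → ℝ} (hc : Continuous c)
    (hs : HasCompactSupport c) : Integrable (fun x => c x * u x) (volume.restrict Ω) := by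
  have h1 : LocallyIntegrable u (volume.restrict Ω) :=
    MemLp.locallyIntegrable hu (by simpa using hp)
  exact h1.integrable_smul_left_of_hasCompactSupport hc hs

theorem image_eq (S : V ≃L[ℝ] V) (Ω : Set V) : S.symm ⁻¹' Ω = S '' Ω := by
  ext x
  constructor
  · intro h
    exact ⟨S.symm x, h, S.apply_symm_apply x⟩
  · rintro ⟨y, hy, rfl⟩
    show S.symm (S y) ∈ Ω
    rw [S.symm_apply_apply]
    exact hy

theorem map_meas (S : V ≃L[ℝ] V) (Ω : Set V) :
    ∃ c : ENNReal, c ≠ ⊤ ∧ c ≠ 0 ∧
      Measure.map S.symm (volume.restrict (S '' Ω)) = c • volume.restrict Ω := by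
  have hd : LinearMap.det (S.symm.toLinearEquiv : V →ₗ[ℝ] V) ≠ 0 :=
    (LinearEquiv.isUnit_det' S.symm.toLinearEquiv).ne_zero
  have h0 := Measure.map_linearMap_addHaar_eq_smul_addHaar (volume : Measure V) hd
  have h1 : Measure.map S.symm (volume : Measure V) =
      ENNReal.ofReal |(LinearMap.det (S.symm.toLinearEquiv : V →ₗ[ℝ] V))⁻¹| • volume := h0
  have he : MeasurableEmbedding (S.symm : V → V) :=
    S.symm.toHomeomorph.measurableEmbedding
  refine ⟨ENNReal.ofReal |(LinearMap.det (S.symm.toLinearEquiv : V →ₗ[ℝ] V))⁻¹|,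
    ENNReal.ofReal_ne_top, ?_, ?_⟩
  · rw [Ne, ENNReal.ofReal_eq_zero, not_le]
    exact abs_pos.2 (inv_ne_zero hd)
  · rw [← image_eq, ← he.restrict_map, h1, Measure.restrict_smul]

theorem int_map (S : V ≃L[ℝ] V) (Ω : Set V) :
    ∃ c : ℝ, ∀ g : V → ℝ, int (S '' Ω) (fun x => g (S.symm x)) = c * int Ω g := by
  obtain ⟨c, hc, -, h⟩ := map_meas S Ω
  have he : MeasurableEmbedding (S.symm : V → V) :=
    S.symm.toHomeomorph.measurableEmbedding
  refine ⟨c.toReal, fun g => ?_⟩
  unfold int
  rw [← he.integral_map (μ := volume.restrict (S '' Ω)) g, h, integral_smul_measure, smul_eq_mul]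

theorem inLp_map (S : V ≃L[ℝ] V) {u : V → ℝ} (hu : InLp p Ω u) :
    InLp p (S '' Ω) (fun x => u (S.symm x)) := by
  obtain ⟨c, hc, -, h⟩ := map_meas S Ω
  have he : MeasurableEmbedding (S.symm : V → V) :=
    S.symm.toHomeomorph.measurableEmbedding
  have h1 : MemLp u (ENNReal.ofReal p) (Measure.map S.symm (volume.restrict (S '' Ω))) := by
    rw [h]
    exact MemLp.smul_measure hu hc
  exact (he.memLp_map_measure_iff).1 h1

/-- The change of the domain. -/
theorem sobolev_dom (hp : 1 ≤ p) (S : V ≃L[ℝ] V) {A : Mat}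
    (hA : ∀ v, S.symm v = ap A v) (hF : St.IsSobolev p Ω f F) :
    St.IsSobolev p (S '' Ω) (fun x => f (S.symm x)) (fun x => mm (F (S.symm x)) A) := by
  refine ⟨fun i => inLp_map S (hF.1 i), fun i j => ?_, fun φ hφ i j => ?_⟩
  · exact memLp_finsetSum _ fun k _ => (inLp_map S (hF.2.1 i k)).mul_const (A k j)
  · have hs : ContDiff ℝ ∞ φ := contDiffOn_univ.1 hφ.1
    obtain ⟨c, hc⟩ := int_map S Ω
    have hs' : ContDiff ℝ ∞ (fun y => φ (S y)) := hs.comp S.contDiff
    have hψ : IsTest Ω (fun y => φ (S y)) := by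
      refine ⟨contDiffOn_univ.2 hs', hφ.2.1.comp_homeomorph S.toHomeomorph, ?_⟩
      have h1 : tsupport (fun y => φ (S y)) ⊆ S ⁻¹' tsupport φ := by
        refine closure_minimal ?_ ((isClosed_tsupport φ).preimage S.continuous)
        intro y hy
        exact subset_tsupport φ hy
      intro y hy
      obtain ⟨z, hz, hzy⟩ := hφ.2.2 (h1 hy)
      rwa [← S.injective hzy]
    have hpd : ∀ y, pd φ (S y) j = ∑ k, A k j * pd (fun y => φ (S y)) y k := by
      intro y
      have e1 : HasFDerivAt (fun y => φ (S y)) ((fderiv ℝ φ (S y)).comp (S : V →L[ℝ] V)) y :=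
        ((hs.differentiable (by simp)) (S y)).hasFDerivAt.comp y S.hasFDerivAt
      have e2 : ∀ v, fderiv ℝ (fun y => φ (S y)) y v = fderiv ℝ φ (S y) (S v) := by
        intro v
        rw [e1.fderiv]
        rfl
      have e3 : S.symm (Pi.single j (1 : ℝ)) = ∑ k, A k j • (Pi.single k (1 : ℝ) : V) := by
        rw [hA]
        funext i
        simp [ap, Pi.single_apply, Finset.sum_apply]
      have e4 : (Pi.single j (1 : ℝ) : V) = S (S.symm (Pi.single j (1 : ℝ))) :=
        (S.apply_symm_apply _).symm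
      rw [pd_eq hs, e4, ← e2, e3, map_sum]
      refine Finset.sum_congr rfl fun k _ => ?_
      rw [map_smul, pd_eq hs', smul_eq_mul]
    have e1 : int (S '' Ω) (fun x => φ x * mm (F (S.symm x)) A i j) =
        c * ∑ k, A k j * int Ω (fun y => φ (S y) * F y i k) := by
      have h1 : (fun x => φ x * mm (F (S.symm x)) A i j) =
          fun x => (fun y => φ (S y) * mm (F y) A i j) (S.symm x) := by
        funext x
        simp only [S.apply_symm_apply]
      rw [h1]
      refine (hc fun y => φ (S y) * mm (F y) A i j).trans ?_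
      congr 1
      unfold int
      have h2 : (fun y => φ (S y) * mm (F y) A i j) =
          fun y => ∑ k, A k j * (φ (S y) * F y i k) := by
        funext y
        show φ (S y) * ∑ k, F y i k * A k j = _
        rw [Finset.mul_sum]
        exact Finset.sum_congr rfl fun k _ => by ring
      rw [h2, integral_finsetSum _ fun k _ =>
        (int_mul hp (hF.2.1 i k) hs'.continuous hψ.2.1).const_mul _]
      exact Finset.sum_congr rfl fun k _ => integral_const_mul _ _
    have e2 : int (S '' Ω) (fun x => pd φ x j * f (S.symm x) i) =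
        c * ∑ k, A k j * int Ω (fun y => pd (fun y => φ (S y)) y k * f y i) := by
      have h1 : (fun x => pd φ x j * f (S.symm x) i) =
          fun x => (fun y => pd φ (S y) j * f y i) (S.symm x) := by
        funext x
        simp only [S.apply_symm_apply]
      rw [h1]
      refine (hc fun y => pd φ (S y) j * f y i).trans ?_
      congr 1
      unfold int
      have h2 : (fun y => pd φ (S y) j * f y i) =
          fun y => ∑ k, A k j * (pd (fun y => φ (S y)) y k * f y i) := by
        funext y
        rw [hpd, Finset.sum_mul]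
        exact Finset.sum_congr rfl fun k _ => by ring
      rw [h2, integral_finsetSum _ fun k _ =>
        (int_mul hp (hF.1 i) (pd_cont hs' k) (pd_comp hs' hψ.2.1 k)).const_mul _]
      exact Finset.sum_congr rfl fun k _ => integral_const_mul _ _
    rw [e1, e2, ← mul_neg, ← Finset.sum_neg_distrib]
    congr 1
    refine Finset.sum_congr rfl fun k _ => ?_
    rw [hF.2.2 _ hψ i k]
    ring

end Vale.Agent.P073.H183.Dom
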