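import Vale.Agent.P073.MathlibUsed

/-!
P073: difference quotients of a function which increases in a direction.
-/

set_option autoImplicit false

namespace Vale.Agent.P073.H183

open MeasureTheory Set Filter Topology Metric
open scoped ContDiff ENNReal

variable {E : Type*} [NormedAddCommGroup E] [NormedSpace ℝ E] [FiniteDimensional ℝ E]
  [MeasurableSpace E] [BorelSpace E] {μ : Measure E} [μ.IsAddHaarMeasure]

theorem key {a h : E} {R : ℝ} (hR : 0 < R) {g : E → ℝ} (hg : ContinuousOn g (closedBall a R))
    (hm : ∀ x ∈ closedBall a R, ∀ t : ℝ, 0 < t → x + t • h ∈ closedBall a R → g x ≤ g (x + t • h))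
    {φ : E → ℝ} (hφ : ContDiff ℝ ∞ φ) (hc : HasCompactSupport φ) (h0 : ∀ x, 0 ≤ φ x)
    (hs : tsupport φ ⊆ closedBall a (R / 2)) :
    0 ≤ ∫ x, -(fderiv ℝ φ x h) * (closedBall a R).indicator g x ∂μ := by
  set ge : E → ℝ := (closedBall a R).indicator g with hge
  have hgi : Integrable ge μ := by
    rw [hge, integrable_indicator_iff measurableSet_closedBall]
    exact hg.integrableOn_compact (isCompact_closedBall a R)
  obtain ⟨K, hK⟩ := ContDiff.lipschitzWith_of_hasCompactSupport hc hφ (by simp)
  set c : ℝ := R / (2 * (‖h‖ + 1)) with hcdef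
  have hh : 0 < ‖h‖ + 1 := by positivity
  have hc0 : 0 < c := by positivity
  have hch : c * ‖h‖ ≤ R / 2 := by
    rw [hcdef, div_mul_eq_mul_div, div_le_iff₀ (by positivity)]
    nlinarith [norm_nonneg h]
  set t : ℕ → ℝ := fun m => c / (m + 1) with ht
  have ht0 : ∀ m, 0 < t m := fun m => by positivity
  have htc : ∀ m, t m ≤ c := fun m => by
    rw [ht]
    exact div_le_self hc0.le (by linarith [(Nat.cast_nonneg m : (0 : ℝ) ≤ m)])
  have htl : Tendsto t atTop (𝓝 0) := by
    have h1 := tendsto_one_div_add_atTop_nhds_zero_nat (𝕜 := ℝ)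
    have h2 := h1.const_mul c
    simpa [ht, div_eq_mul_inv] using h2
  have htl' : Tendsto t atTop (𝓝[≠] 0) := by
    rw [tendsto_nhdsWithin_iff]
    exact ⟨htl, Eventually.of_forall fun m => (ht0 m).ne'⟩
  have hbd : ∃ C : ℝ, ∀ x, ‖φ x‖ ≤ C := by
    obtain ⟨C, hC⟩ := hc.exists_bound_of_continuous hφ.continuous
    exact ⟨C, hC⟩
  obtain ⟨C, hC⟩ := hbd
  -- the integrals
  have hlim : Tendsto (fun m => ∫ x, ((t m)⁻¹ * (φ (x - t m • h) - φ x)) * ge x ∂μ) atTop
      (𝓝 (∫ x, -(fderiv ℝ φ x h) * ge x ∂μ)) := by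
    apply tendsto_integral_of_dominated_convergence (fun x => (K * ‖h‖) * ‖ge x‖)
    · intro m
      apply AEStronglyMeasurable.mul _ hgi.aestronglyMeasurable
      apply Continuous.aestronglyMeasurable
      have := hφ.continuous
      fun_prop
    · exact hgi.norm.const_mul _
    · intro m
      refine Eventually.of_forall fun x => ?_
      rw [norm_mul]
      apply mul_le_mul_of_nonneg_right _ (norm_nonneg _)
      rw [norm_mul, norm_inv, Real.norm_of_nonneg (ht0 m).le]
      have h1 := hK.dist_le_mul (x - t m • h) x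
      rw [dist_eq_norm, dist_eq_norm] at h1
      have h2 : ‖x - t m • h - x‖ = t m * ‖h‖ := by
        rw [sub_sub_cancel_left, norm_neg, norm_smul, Real.norm_of_nonneg (ht0 m).le]
      rw [h2] at h1
      calc (t m)⁻¹ * ‖φ (x - t m • h) - φ x‖ ≤ (t m)⁻¹ * (K * (t m * ‖h‖)) :=
            mul_le_mul_of_nonneg_left h1 (inv_nonneg.2 (ht0 m).le)
        _ = K * ‖h‖ := by
            have := (ht0 m).ne'
            field_simp
    · refine Eventually.of_forall fun x => ?_
      apply Tendsto.mul_const
      have h1 : HasDerivAt (fun s : ℝ => φ (x - s • h)) (-(fderiv ℝ φ x h)) 0 := by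
        have h2 : HasFDerivAt φ (fderiv ℝ φ x) (x - (0 : ℝ) • h) := by
          rw [zero_smul, sub_zero]
          exact (hφ.differentiable (by simp) x).hasFDerivAt
        have h3 : HasDerivAt (fun s : ℝ => x - s • h) (-h) 0 := by
          have h4 := ((hasDerivAt_id (0 : ℝ)).smul_const h).const_sub x
          simpa using h4
        have h5 := h2.comp_hasDerivAt (0 : ℝ) h3
        rw [map_neg] at h5
        exact h5
      have h2 := h1.tendsto_slope_zero.comp htl'
      refine h2.congr fun m => ?_
      simp [Function.comp]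
  apply ge_of_tendsto' hlim
  intro m
  have hbm : ∀ x, ‖φ (x - t m • h)‖ ≤ C := fun x => hC _
  have hi1 : Integrable (fun x => φ (x - t m • h) * ge x) μ := by
    apply Integrable.bdd_mul hgi _ (Eventually.of_forall hbm)
    apply Continuous.aestronglyMeasurable
    have := hφ.continuous
    fun_prop
  have hi2 : Integrable (fun x => φ x * ge x) μ :=
    Integrable.bdd_mul hgi hφ.continuous.aestronglyMeasurable (Eventually.of_forall hC)
  have hi3 : Integrable (fun x => φ x * ge (x + t m • h)) μ := by
    have := hi1.comp_add_right (t m • h)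
    refine this.congr (Eventually.of_forall fun x => ?_)
    simp
  have h1 : ∫ x, ((t m)⁻¹ * (φ (x - t m • h) - φ x)) * ge x ∂μ =
      (t m)⁻¹ * ∫ x, φ x * (ge (x + t m • h) - ge x) ∂μ := by
    have e1 : (fun x => ((t m)⁻¹ * (φ (x - t m • h) - φ x)) * ge x) =
        fun x => (t m)⁻¹ * (φ (x - t m • h) * ge x - φ x * ge x) := by
      funext x; ring
    rw [e1, integral_const_mul, integral_sub hi1 hi2]
    congr 1
    have e2 : ∫ x, φ (x - t m • h) * ge x ∂μ = ∫ x, φ x * ge (x + t m • h) ∂μ := by
      rw [← integral_add_right_eq_self (fun x => φ (x - t m • h) * ge x) (t m • h)]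
      congr 1
      funext x
      simp
    rw [e2, ← integral_sub hi3 hi2]
    congr 1
    funext x
    ring
  rw [h1]
  apply mul_nonneg (inv_nonneg.2 (ht0 m).le)
  apply integral_nonneg
  intro x
  by_cases hx : x ∈ tsupport φ
  · have hx1 : x ∈ closedBall a (R / 2) := hs hx
    have hx2 : x ∈ closedBall a R := closedBall_subset_closedBall (by linarith) hx1
    have hx3 : x + t m • h ∈ closedBall a R := by
      rw [mem_closedBall, dist_eq_norm] at hx1 ⊢
      calc ‖x + t m • h - a‖ = ‖(x - a) + t m • h‖ := by congr 1; abel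
        _ ≤ ‖x - a‖ + ‖t m • h‖ := norm_add_le _ _
        _ ≤ R / 2 + R / 2 := by
            apply add_le_add hx1
            rw [norm_smul, Real.norm_of_nonneg (ht0 m).le]
            exact (mul_le_mul_of_nonneg_right (htc m) (norm_nonneg h)).trans hch
        _ = R := by ring
    apply mul_nonneg (h0 x)
    rw [hge, indicator_of_mem hx2, indicator_of_mem hx3, sub_nonneg]
    exact hm x hx2 _ (ht0 m) hx3
  · have hx0 := image_eq_zero_of_notMem_tsupport hx
    simp [hx0]

end Vale.Agent.P073.H183
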