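import Vale.Agent.P073.MM.Rows
import Vale.Agent.P073.H183.Key

/-!
P073, MM rows: the weak derivative of a locally monotone map has a nonnegative symmetric part.
-/

set_option autoImplicit false

namespace Vale.Agent.P073.H183

open MeasureTheory Set Filter Topology Metric Vale.Agent.P073.St Vale.Agent.P073.AB
open scoped ContDiff ENNReal Convolution

/-- The quadratic form. -/
noncomputable def Qf (U : Set V) (F : V → Mat) (h : V) (x : V) : ℝ :=
  ∑ i, ∑ j, (h i * h j) * U.indicator (fun x => F x i j) x

theorem euc_lt {v : V} {r : ℝ} (hr : 0 < r) (hv : ‖v‖ ≤ r / 4) : euc v < r := by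
  rw [euc, Real.sqrt_lt' hr]
  have h1 : ∀ i, v i ^ 2 ≤ (r / 4) ^ 2 := fun i => by
    have h2 : |v i| ≤ r / 4 := (norm_le_pi_norm v i).trans hv
    exact sq_le_sq' (by linarith [neg_le_of_abs_le h2]) (le_of_abs_le h2)
  rw [Fin.sum_univ_three]
  nlinarith [h1 0, h1 1, h1 2]

variable {p : ℝ} {U : Set V} {f : V → V} {F : V → Mat}

theorem locF (hp : 1 ≤ p) (hU : IsOpen U) (hF : St.IsSobolev p U f F) (i j : Fin 3) :
    LocallyIntegrable (U.indicator (fun x => F x i j)) volume := by
  have h1 : MemLp (fun x => F x i j) (ENNReal.ofReal p) (volume.restrict U) := hF.2.1 i j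
  rw [← memLp_indicator_iff_restrict hU.measurableSet] at h1
  exact h1.locallyIntegrable (ENNReal.one_le_ofReal.2 hp)

theorem locf (hp : 1 ≤ p) (hU : IsOpen U) (hF : St.IsSobolev p U f F) (i : Fin 3) :
    LocallyIntegrable (U.indicator (fun x => f x i)) volume := by
  have h1 : MemLp (fun x => f x i) (ENNReal.ofReal p) (volume.restrict U) := hF.1 i
  rw [← memLp_indicator_iff_restrict hU.measurableSet] at h1
  exact h1.locallyIntegrable (ENNReal.one_le_ofReal.2 hp)

theorem locQ (hp : 1 ≤ p) (hU : IsOpen U) (hF : St.IsSobolev p U f F) (h : V) :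
    LocallyIntegrable (Qf U F h) volume := by
  have h1 : Qf U F h = ∑ i, ∑ j, (h i * h j) • (U.indicator (fun x => F x i j)) := by
    funext x
    simp [Qf, Finset.sum_apply]
  rw [h1]
  apply locallyIntegrable_finsetSum'
  intro i _
  apply locallyIntegrable_finsetSum'
  intro j _
  exact (locF hp hU hF i j).smul _

theorem local_nonneg (hp : 1 ≤ p) (hU : IsOpen U) (hfc : ContinuousOn f U)
    (hF : St.IsSobolev p U f F) (hm : MM.LocMonotone U f) (h : V) {a : V} (ha : a ∈ U) :
    ∃ δ : ℝ, 0 < δ ∧ ∀ φ : V → ℝ, ContDiff ℝ ∞ φ → HasCompactSupport φ → (∀ x, 0 ≤ φ x) →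
      tsupport φ ⊆ closedBall a δ → 0 ≤ ∫ x, φ x * Qf U F h x := by
  obtain ⟨r, hr, hmon⟩ := hm a ha
  obtain ⟨δ₀, hδ₀, hδU⟩ := nhds_basis_closedBall.mem_iff.1 (hU.mem_nhds ha)
  set R : ℝ := min δ₀ (r / 4) with hR
  have hR0 : 0 < R := lt_min hδ₀ (by positivity)
  have hRU : closedBall a R ⊆ U := (closedBall_subset_closedBall (min_le_left _ _)).trans hδU
  have hRr : ∀ x ∈ closedBall a R, euc (x - a) < r := fun x hx => by
    apply euc_lt hr
    rw [mem_closedBall, dist_eq_norm] at hx
    exact hx.trans (min_le_right _ _)
  refine ⟨R / 2, by positivity, fun φ hφ hc h0 hs => ?_⟩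
  set g : V → ℝ := fun x => ∑ i, h i * f x i with hg
  have hgc : ContinuousOn g (closedBall a R) := by
    have h1 : ContinuousOn f (closedBall a R) := hfc.mono hRU
    apply continuousOn_finsetSum
    intro i _
    exact continuousOn_const.mul ((continuous_apply i).comp_continuousOn h1)
  have hgm : ∀ x ∈ closedBall a R, ∀ t : ℝ, 0 < t → x + t • h ∈ closedBall a R →
      g x ≤ g (x + t • h) := by
    intro x hx t ht hx'
    have h1 := hmon (x + t • h) x (hRr _ hx') (hRr _ hx)
    have h2 : ∑ i, ((x + t • h) i - x i) * (f (x + t • h) i - f x i) =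
        t * (g (x + t • h) - g x) := by
      simp only [hg, Pi.add_apply, Pi.smul_apply, smul_eq_mul, add_sub_cancel_left]
      rw [← Finset.sum_sub_distrib, Finset.mul_sum]
      apply Finset.sum_congr rfl
      intro i _
      ring
    rw [h2] at h1
    have h3 := (mul_nonneg_iff_of_pos_left ht).1 h1
    linarith
  have hkey := key (μ := (volume : Measure V)) hR0 hgc hgm hφ hc h0 hs
  have hsR : tsupport φ ⊆ closedBall a R :=
    hs.trans (closedBall_subset_closedBall (by linarith))
  have htest : IsTest U φ := ⟨hφ.contDiffOn, hc, hsR.trans hRU⟩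
  have hpd : ∀ x j, pd φ x j = fderiv ℝ φ x (Pi.single j 1) := fun x j => PK.pd_eq_fderiv hφ x j
  -- the weak derivative
  have hw : ∀ i j, ∫ x, φ x * U.indicator (fun x => F x i j) x =
      - ∫ x, fderiv ℝ φ x (Pi.single j 1) * U.indicator (fun x => f x i) x := by
    intro i j
    have h1 := hF.2.2 φ htest i j
    simp only [St.int] at h1
    rw [← integral_indicator hU.measurableSet, ← integral_indicator hU.measurableSet] at h1
    have e1 : (U.indicator fun x => φ x * F x i j) =
        fun x => φ x * U.indicator (fun x => F x i j) x := by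
      funext x
      exact indicator_mul_right U φ (fun x => F x i j)
    have e2 : (U.indicator fun x => pd φ x j * f x i) =
        fun x => fderiv ℝ φ x (Pi.single j 1) * U.indicator (fun x => f x i) x := by
      funext x
      rw [← hpd]
      exact indicator_mul_right U (fun x => pd φ x j) (fun x => f x i)
    rw [e1, e2] at h1
    exact h1
  have hi1 : ∀ i j, Integrable (fun x => φ x * U.indicator (fun x => F x i j) x) volume :=
    fun i j => (locF hp hU hF i j).integrable_smul_left_of_hasCompactSupport hφ.continuous hc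
  have hdc : ∀ j : Fin 3, Continuous fun x => fderiv ℝ φ x (Pi.single j 1) := fun j =>
    (hφ.continuous_fderiv (by simp)).clm_apply continuous_const
  have hds : ∀ j : Fin 3, HasCompactSupport fun x => fderiv ℝ φ x (Pi.single j 1) := fun j => by
    have h1 := hc.fderiv (𝕜 := ℝ)
    exact h1.comp_left (g := fun L : V →L[ℝ] ℝ => L (Pi.single j 1)) rfl
  have hi2 : ∀ i j, Integrable
      (fun x => fderiv ℝ φ x (Pi.single j 1) * U.indicator (fun x => f x i) x) volume :=
    fun i j => (locf hp hU hF i).integrable_smul_left_of_hasCompactSupport (hdc j) (hds j)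
  have e1 : ∫ x, φ x * Qf U F h x =
      ∑ i, ∑ j, (h i * h j) * ∫ x, φ x * U.indicator (fun x => F x i j) x := by
    have h1 : (fun x => φ x * Qf U F h x) =
        fun x => ∑ i, ∑ j, (h i * h j) * (φ x * U.indicator (fun x => F x i j) x) := by
      funext x
      rw [Qf, Finset.mul_sum]
      apply Finset.sum_congr rfl
      intro i _
      rw [Finset.mul_sum]
      apply Finset.sum_congr rfl
      intro j _
      ring
    rw [h1, integral_finsetSum _ (fun i _ => integrable_finsetSum _ (fun j _ =>
      (hi1 i j).const_mul _))]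
    apply Finset.sum_congr rfl
    intro i _
    rw [integral_finsetSum _ (fun j _ => (hi1 i j).const_mul _)]
    apply Finset.sum_congr rfl
    intro j _
    rw [integral_const_mul]
  have e2 : ∫ x, -(fderiv ℝ φ x h) * (closedBall a R).indicator g x =
      ∑ i, ∑ j, (h i * h j) *
        (- ∫ x, fderiv ℝ φ x (Pi.single j 1) * U.indicator (fun x => f x i) x) := by
    have h1 : (fun x => -(fderiv ℝ φ x h) * (closedBall a R).indicator g x) =
        fun x => ∑ i, ∑ j, (h i * h j) *
          -(fderiv ℝ φ x (Pi.single j 1) * U.indicator (fun x => f x i) x) := by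
      funext x
      have h2 : fderiv ℝ φ x h = ∑ j, h j * fderiv ℝ φ x (Pi.single j 1) := by
        conv_lhs => rw [pi_eq_sum_univ' h]
        rw [map_sum]
        apply Finset.sum_congr rfl
        intro j _
        rw [map_smul, smul_eq_mul]
      by_cases hx : x ∈ tsupport φ
      · have hx1 : x ∈ closedBall a R := hsR hx
        rw [indicator_of_mem hx1, h2, hg]
        simp only [indicator_of_mem (hRU hx1)]
        rw [neg_mul, Finset.sum_mul_sum, Finset.sum_comm, ← Finset.sum_neg_distrib]
        apply Finset.sum_congr rfl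
        intro i _
        rw [← Finset.sum_neg_distrib]
        apply Finset.sum_congr rfl
        intro j _
        ring
      · have h3 : fderiv ℝ φ x = 0 := by
          by_contra hne
          exact hx (support_fderiv_subset ℝ hne)
        simp [h3]
    have hi3 : ∀ i j, Integrable
        (fun x => -(fderiv ℝ φ x (Pi.single j 1) * U.indicator (fun x => f x i) x)) volume :=
      fun i j => (hi2 i j).neg
    rw [h1, integral_finsetSum _ (fun i _ => integrable_finsetSum _ (fun j _ =>
      (hi3 i j).const_mul _))]
    apply Finset.sum_congr rfl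
    intro i _
    rw [integral_finsetSum _ (fun j _ => (hi3 i j).const_mul _)]
    apply Finset.sum_congr rfl
    intro j _
    rw [integral_const_mul, integral_neg]
  rw [e1]
  simp only [hw]
  rw [← e2]
  exact hkey

theorem psd : MM.SpecPSD := by
  intro p U f F hp hU hfc hF hm
  -- a countable dense set of directions
  have h1 : ∀ m : ℕ, ∀ᵐ x ∂(volume : Measure V), x ∈ U →
      0 ≤ Qf U F (TopologicalSpace.denseSeq V m) x := by
    intro m
    set h := TopologicalSpace.denseSeq V m
    let φ : ℕ → ContDiffBump (0 : V) := fun k =>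
      { rIn := 1 / (2 * ((k : ℝ) + 1))
        rOut := 1 / ((k : ℝ) + 1)
        rIn_pos := by positivity
        rIn_lt_rOut := by
          apply one_div_lt_one_div_of_lt (by positivity)
          have : (0 : ℝ) ≤ k := Nat.cast_nonneg k
          linarith }
    have hφ0 : Tendsto (fun k => (φ k).rOut) atTop (𝓝 0) :=
      tendsto_one_div_add_atTop_nhds_zero_nat
    have hφK : ∀ᶠ k in atTop, (φ k).rOut ≤ 2 * (φ k).rIn := by
      refine Eventually.of_forall fun k => ?_
      change 1 / ((k : ℝ) + 1) ≤ 2 * (1 / (2 * ((k : ℝ) + 1)))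
      have : (0 : ℝ) < (k : ℝ) + 1 := by positivity
      apply le_of_eq
      field_simp
    filter_upwards [ContDiffBump.ae_convolution_tendsto_right_of_locallyIntegrable
      (μ := (volume : Measure V)) hφ0 hφK (locQ hp hU hF h)] with x hx hxU
    obtain ⟨δ, hδ, hloc⟩ := local_nonneg hp hU hfc hF hm h hxU
    apply ge_of_tendsto hx
    have h2 : ∀ᶠ k in atTop, (φ k).rOut < δ := hφ0.eventually_lt_const hδ
    filter_upwards [h2] with k hk
    rw [convolution_eq_swap]
    have hsup : tsupport (fun y => (φ k).normed volume (x - y)) ⊆ closedBall x δ := by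
      apply closure_minimal _ isClosed_closedBall
      intro y hy
      have h3 : x - y ∈ Function.support ((φ k).normed volume) := hy
      rw [ContDiffBump.support_normed_eq, mem_ball_zero_iff] at h3
      rw [mem_closedBall, dist_comm, dist_eq_norm]
      exact (h3.trans hk).le
    have h3 := hloc (fun y => (φ k).normed volume (x - y))
      ((φ k).contDiff_normed.comp (contDiff_const.sub contDiff_id))
      (HasCompactSupport.of_support_subset_isCompact (isCompact_closedBall x δ)
        (subset_closure.trans hsup))
      (fun y => (φ k).nonneg_normed _) hsup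
    exact h3
  rw [← ae_all_iff] at h1
  filter_upwards [h1] with x hx hxU h
  have hc : Continuous fun h : V => ∑ i, h i * cl (F x) h i := by
    apply continuous_finsetSum
    intro i _
    exact (continuous_apply i).mul ((continuous_apply i).comp (cl (F x)).continuous)
  have hcl : IsClosed {h : V | 0 ≤ ∑ i, h i * cl (F x) h i} := isClosed_le continuous_const hc
  have h2 : ∀ h : V, Qf U F h x = ∑ i, h i * cl (F x) h i := by
    intro h
    rw [Qf]
    apply Finset.sum_congr rfl
    intro i _
    have h3 : cl (F x) h i = ∑ j, F x i j * h j := by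
      simp [cl, Matrix.toLin'_apply, Matrix.mulVec, dotProduct]
    rw [h3, Finset.mul_sum]
    apply Finset.sum_congr rfl
    intro j _
    rw [indicator_of_mem hxU]
    ring
  have h3 : closure (range (TopologicalSpace.denseSeq V)) ⊆ {h : V | 0 ≤ ∑ i, h i * cl (F x) h i} := by
    apply closure_minimal _ hcl
    rintro _ ⟨m, rfl⟩
    have := hx m hxU
    rw [h2] at this
    exact this
  have h4 : h ∈ closure (range (TopologicalSpace.denseSeq V)) := by
    rw [(TopologicalSpace.denseRange_denseSeq V).closure_range]
    trivial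
  exact h3 h4

end Vale.Agent.P073.H183
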